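import Mathlib

/-!
# Abstract Johnson Poincaré inequality (S0453, PROOF.md section 7, (T2))

For the `s`-subsets `K` of a finite set `D` and `φ : Finset α → ℝ`:
`|K| * ∑_K φ² - (∑_K φ)² ≤ (1/4) * |K| * ∑_{X ∈ K} ∑_{c ∈ X} ∑_{d ∈ D \ X} (φ X - φ (X - c + d))²`,
i.e. `∑_K (φ - mean)² ≤ (1/2) ∑_{unordered Johnson edges} (dφ)²`.

Proof: induction on `D` (insert `u`), splitting `K` according to `u ∈ X`.
-/

set_option autoImplicit false
open Finset

namespace Crest.Agent.Helper80.S0453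

variable {α : Type*} [DecidableEq α]

/-- Ordered Johnson energy of `φ` on the `s`-subsets of `D`. -/
def jEnergy (D : Finset α) (s : ℕ) (φ : Finset α → ℝ) : ℝ :=
  ∑ X ∈ D.powersetCard s, ∑ c ∈ X, ∑ d ∈ D \ X, (φ X - φ (insert d (X.erase c))) ^ 2

/-- `|K|²` times the variance of `φ` on the `s`-subsets of `D`. -/
def jVar (D : Finset α) (s : ℕ) (φ : Finset α → ℝ) : ℝ :=
  ((D.powersetCard s).card : ℝ) * ∑ X ∈ D.powersetCard s, φ X ^ 2
    - (∑ X ∈ D.powersetCard s, φ X) ^ 2

theorem jEnergy_nonneg (D : Finset α) (s : ℕ) (φ : Finset α → ℝ) : 0 ≤ jEnergy D s φ := by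
  unfold jEnergy
  exact sum_nonneg fun X _ => sum_nonneg fun c _ => sum_nonneg fun d _ => sq_nonneg _

/-- Double counting: pairs `(Y, d)` with `Y` an `s`-subset, `d ∈ D \ Y` correspond to pairs
`(X, c)` with `X` an `(s+1)`-subset and `c ∈ X`. -/
theorem sum_powersetCard_sdiff (D : Finset α) (s : ℕ) {M : Type*} [AddCommMonoid M]
    (F : Finset α → α → M) :
    ∑ Y ∈ D.powersetCard s, ∑ d ∈ D \ Y, F Y d
      = ∑ X ∈ D.powersetCard (s + 1), ∑ c ∈ X, F (X.erase c) c := by
  rw [Finset.sum_sigma', Finset.sum_sigma']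
  refine Finset.sum_bij' (fun p _ => ⟨insert p.2 p.1, p.2⟩) (fun q _ => ⟨q.1.erase q.2, q.2⟩)
    ?_ ?_ ?_ ?_ ?_
  · rintro ⟨Y, d⟩ h
    simp only [mem_sigma, mem_powersetCard, mem_sdiff] at h ⊢
    obtain ⟨⟨hY, hc⟩, hd, hdY⟩ := h
    refine ⟨⟨insert_subset hd hY, ?_⟩, mem_insert_self _ _⟩
    rw [card_insert_of_notMem hdY, hc]
  · rintro ⟨X, c⟩ h
    simp only [mem_sigma, mem_powersetCard, mem_sdiff] at h ⊢
    obtain ⟨⟨hX, hc⟩, hcX⟩ := h
    refine ⟨⟨(erase_subset _ _).trans hX, ?_⟩, hX hcX, notMem_erase _ _⟩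
    rw [card_erase_of_mem hcX, hc]; rfl
  · rintro ⟨Y, d⟩ h
    simp only [mem_sigma, mem_powersetCard, mem_sdiff] at h
    obtain ⟨⟨hY, hc⟩, hd, hdY⟩ := h
    simp [erase_insert hdY]
  · rintro ⟨X, c⟩ h
    simp only [mem_sigma, mem_powersetCard] at h
    obtain ⟨⟨hX, hc⟩, hcX⟩ := h
    simp [insert_erase hcX]
  · rintro ⟨Y, d⟩ h
    simp only [mem_sigma, mem_powersetCard, mem_sdiff] at h
    obtain ⟨⟨hY, hc⟩, hd, hdY⟩ := h
    simp [erase_insert hdY]

/-- Splitting a sum over the `(s+1)`-subsets of `insert u D` according to `u ∈ X`. -/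
theorem sum_powersetCard_succ_insert {u : α} {D : Finset α} (hu : u ∉ D) (s : ℕ)
    {M : Type*} [AddCommMonoid M] (F : Finset α → M) :
    ∑ X ∈ (insert u D).powersetCard (s + 1), F X
      = ∑ X ∈ D.powersetCard (s + 1), F X + ∑ Y ∈ D.powersetCard s, F (insert u Y) := by
  rw [powersetCard_succ_insert hu, sum_union, sum_image]
  · intro Y hY Y' hY' h
    have hY1 : u ∉ Y := fun h' => hu ((mem_powersetCard.1 hY).1 h')
    have hY2 : u ∉ Y' := fun h' => hu ((mem_powersetCard.1 hY').1 h')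
    have := congrArg (fun Z => Z.erase u) h
    simpa [erase_insert hY1, erase_insert hY2] using this
  · rw [disjoint_left]
    intro X hX hX'
    obtain ⟨Y, -, rfl⟩ := mem_image.1 hX'
    exact hu ((mem_powersetCard.1 hX).1 (mem_insert_self u Y))

/-- The energy carried by the exchanges moving `u`. -/
def jCross (u : α) (D : Finset α) (s : ℕ) (φ : Finset α → ℝ) : ℝ :=
  ∑ Y ∈ D.powersetCard s, ∑ d ∈ D \ Y, (φ (insert u Y) - φ (insert d Y)) ^ 2

theorem jCross_nonneg (u : α) (D : Finset α) (s : ℕ) (φ : Finset α → ℝ) :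
    0 ≤ jCross u D s φ := by
  unfold jCross
  exact sum_nonneg fun X _ => sum_nonneg fun c _ => sq_nonneg _

theorem jEnergy_succ_insert {u : α} {D : Finset α} (hu : u ∉ D) (s : ℕ) (φ : Finset α → ℝ) :
    jEnergy (insert u D) (s + 1) φ
      = jEnergy D (s + 1) φ + jEnergy D s (fun Y => φ (insert u Y)) + 2 * jCross u D s φ := by
  unfold jEnergy
  rw [sum_powersetCard_succ_insert hu]
  have h0 : ∑ X ∈ D.powersetCard (s + 1), ∑ c ∈ X, ∑ d ∈ insert u D \ X,
        (φ X - φ (insert d (X.erase c))) ^ 2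
      = ∑ X ∈ D.powersetCard (s + 1), ∑ c ∈ X, ∑ d ∈ D \ X,
          (φ X - φ (insert d (X.erase c))) ^ 2 + jCross u D s φ := by
    unfold jCross
    rw [sum_powersetCard_sdiff D s (fun Y d => (φ (insert u Y) - φ (insert d Y)) ^ 2),
      ← sum_add_distrib]
    refine sum_congr rfl fun X hX => ?_
    have hX' := mem_powersetCard.1 hX
    have huX : u ∉ X := fun h => hu (hX'.1 h)
    rw [← sum_add_distrib]
    refine sum_congr rfl fun c hc => ?_
    rw [insert_sdiff_of_notMem _ huX, sum_insert (by simp [hu]), insert_erase hc]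
    ring
  have h1 : ∑ Y ∈ D.powersetCard s, ∑ c ∈ insert u Y, ∑ d ∈ insert u D \ insert u Y,
        (φ (insert u Y) - φ (insert d ((insert u Y).erase c))) ^ 2
      = ∑ Y ∈ D.powersetCard s, ∑ c ∈ Y, ∑ d ∈ D \ Y,
          (φ (insert u Y) - φ (insert u (insert d (Y.erase c)))) ^ 2 + jCross u D s φ := by
    unfold jCross
    rw [← sum_add_distrib]
    refine sum_congr rfl fun Y hY => ?_
    have hY' := mem_powersetCard.1 hY
    have huY : u ∉ Y := fun h => hu (hY'.1 h)
    have hsd : insert u D \ insert u Y = D \ Y := by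
      ext x
      simp only [mem_sdiff, mem_insert]
      constructor
      · rintro ⟨h | h, h'⟩
        · exact absurd (Or.inl h) h'
        · exact ⟨h, fun hx => h' (Or.inr hx)⟩
      · rintro ⟨h, h'⟩
        refine ⟨Or.inr h, ?_⟩
        rintro (rfl | hx)
        · exact hu h
        · exact h' hx
    rw [sum_insert huY, hsd, erase_insert huY, add_comm]
    congr 1
    refine sum_congr rfl fun c hc => ?_
    have hcu : c ≠ u := fun h => huY (h ▸ hc)
    refine sum_congr rfl fun d _ => ?_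
    rw [erase_insert_of_ne (Ne.symm hcu), Finset.insert_comm]
  rw [h0, h1]
  ring

/-- The real-number inequality behind the induction step. -/
private theorem final_ineq (n0 n1 a b S0 S1 Q0 Q1 E0 E1 Eu : ℝ) (hn0 : 0 ≤ n0) (hn1 : 0 ≤ n1)
    (ha : 0 < n0 → 1 ≤ a) (hb : 1 ≤ b) (hM : n1 * a = n0 * b)
    (hCS : (a * S1 - b * S0) ^ 2 ≤ n1 * a * Eu)
    (h0 : n0 * Q0 - S0 ^ 2 ≤ 1 / 4 * n0 * E0) (h1 : n1 * Q1 - S1 ^ 2 ≤ 1 / 4 * n1 * E1)
    (hE0 : 0 ≤ E0) (hE1 : 0 ≤ E1) (hEu : 0 ≤ Eu)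
    (hz0 : n0 = 0 → S0 = 0 ∧ Q0 = 0) (hz1 : n1 = 0 → S1 = 0 ∧ Q1 = 0) :
    (n0 + n1) * (Q0 + Q1) - (S0 + S1) ^ 2 ≤ 1 / 4 * (n0 + n1) * (E0 + E1 + 2 * Eu) := by
  rcases hn0.eq_or_lt with h | hn0'
  · obtain ⟨hS, hQ⟩ := hz0 h.symm
    subst hS hQ
    rw [← h]
    have : 1 / 4 * n1 * E1 ≤ 1 / 4 * (0 + n1) * (E0 + E1 + 2 * Eu) := by
      rw [zero_add]
      have : E1 ≤ E0 + E1 + 2 * Eu := by linarith
      exact mul_le_mul_of_nonneg_left this (by positivity)
    linarith
  rcases hn1.eq_or_lt with h | hn1'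
  · obtain ⟨hS, hQ⟩ := hz1 h.symm
    subst hS hQ
    rw [← h]
    have : 1 / 4 * n0 * E0 ≤ 1 / 4 * (n0 + 0) * (E0 + E1 + 2 * Eu) := by
      rw [add_zero]
      have : E0 ≤ E0 + E1 + 2 * Eu := by linarith
      exact mul_le_mul_of_nonneg_left this (by positivity)
    linarith
  have ha' := ha hn0'
  have hMpos : 0 < n0 * b := by positivity
  have hkey : n0 * n1 * ((n0 + n1) * (Q0 + Q1) - (S0 + S1) ^ 2)
      = n1 * (n0 + n1) * (n0 * Q0 - S0 ^ 2) + n0 * (n0 + n1) * (n1 * Q1 - S1 ^ 2)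
        + (n0 * S1 - n1 * S0) ^ 2 := by ring
  have hX : (n0 * b) * (n0 * S1 - n1 * S0) ^ 2 ≤ (n0 * n1) ^ 2 * Eu := by
    have e : (n0 * b) * (n0 * S1 - n1 * S0) = n0 * n1 * (a * S1 - b * S0) := by
      have : (n0 * b) * (n0 * S1 - n1 * S0) = n0 * (n0 * b) * S1 - n1 * (n0 * b) * S0 := by ring
      rw [this]
      nth_rewrite 1 [← hM]
      ring
    have : (n0 * b) * ((n0 * b) * (n0 * S1 - n1 * S0) ^ 2) ≤ (n0 * b) * ((n0 * n1) ^ 2 * Eu) := by
      have h' : (n0 * b) * ((n0 * b) * (n0 * S1 - n1 * S0) ^ 2)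
          = (n0 * n1) ^ 2 * (a * S1 - b * S0) ^ 2 := by
        rw [← mul_assoc, ← sq, ← mul_pow, e, mul_pow]
      rw [h']
      have : (n0 * n1) ^ 2 * (a * S1 - b * S0) ^ 2 ≤ (n0 * n1) ^ 2 * (n1 * a * Eu) :=
        mul_le_mul_of_nonneg_left hCS (by positivity)
      rw [hM] at this
      linarith
    exact le_of_mul_le_mul_left this hMpos
  have h2 : 2 * (n0 * n1) ≤ (n0 * b) * (n0 + n1) := by
    have : (n0 * b) * (n0 + n1) = n0 * n1 * (a + b) := by
      have : (n0 * b) * (n0 + n1) = n0 * (n0 * b) + n0 * n1 * b := by ring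
      rw [this]
      nth_rewrite 1 [← hM]
      ring
    rw [this]
    have : (2 : ℝ) ≤ a + b := by linarith
    have hp : 0 ≤ n0 * n1 := by positivity
    nlinarith
  have h4 : 4 * (n0 * S1 - n1 * S0) ^ 2 ≤ 2 * (n0 * n1) * (n0 + n1) * Eu := by
    have : (n0 * b) * (4 * (n0 * S1 - n1 * S0) ^ 2)
        ≤ (n0 * b) * (2 * (n0 * n1) * (n0 + n1) * Eu) := by
      have h5 : 2 * (n0 * n1) * (n0 * n1) * Eu ≤ (n0 * b) * (n0 + n1) * (n0 * n1) * Eu := by
        have hp : 0 ≤ (n0 * n1) * Eu := by positivity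
        nlinarith
      nlinarith
    exact le_of_mul_le_mul_left this hMpos
  have hfin : n0 * n1 * ((n0 + n1) * (Q0 + Q1) - (S0 + S1) ^ 2)
      ≤ n0 * n1 * (1 / 4 * (n0 + n1) * (E0 + E1 + 2 * Eu)) := by
    rw [hkey]
    have a0 : n1 * (n0 + n1) * (n0 * Q0 - S0 ^ 2) ≤ n1 * (n0 + n1) * (1 / 4 * n0 * E0) :=
      mul_le_mul_of_nonneg_left h0 (by positivity)
    have a1 : n0 * (n0 + n1) * (n1 * Q1 - S1 ^ 2) ≤ n0 * (n0 + n1) * (1 / 4 * n1 * E1) :=
      mul_le_mul_of_nonneg_left h1 (by positivity)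
    nlinarith
  exact le_of_mul_le_mul_left hfin (by positivity)

omit [DecidableEq α] in
theorem jVar_eq_zero_of_card_le_one (D : Finset α) (s : ℕ) (φ : Finset α → ℝ)
    (h : (D.powersetCard s).card ≤ 1) : jVar D s φ = 0 := by
  unfold jVar
  rcases (D.powersetCard s).eq_empty_or_nonempty with h0 | h0
  · simp [h0]
  · have h1 : (D.powersetCard s).card = 1 :=
      le_antisymm h (Finset.card_pos.2 h0)
    obtain ⟨X, hX⟩ := Finset.card_eq_one.1 h1
    simp [hX]

/-- **Johnson Poincaré inequality** (variance form, ordered energy, constant `1/4`). -/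
theorem jVar_le (D : Finset α) : ∀ (s : ℕ) (φ : Finset α → ℝ),
    jVar D s φ ≤ 1 / 4 * ((D.powersetCard s).card : ℝ) * jEnergy D s φ := by
  induction D using Finset.induction_on with
  | empty =>
    intro s φ
    rw [jVar_eq_zero_of_card_le_one]
    · have := jEnergy_nonneg (∅ : Finset α) s φ
      positivity
    · rw [card_powersetCard, card_empty]
      cases s with
      | zero => simp
      | succ s => simp
  | insert u D hu ih =>
    intro s φ
    cases s with
    | zero =>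
      rw [jVar_eq_zero_of_card_le_one]
      · have := jEnergy_nonneg (insert u D) 0 φ
        positivity
      · simp
    | succ s =>
      have hE := jEnergy_succ_insert hu s φ
      have hEu := jCross_nonneg u D s φ
      have hE0 := jEnergy_nonneg D (s + 1) φ
      have hE1 := jEnergy_nonneg D s (fun Y => φ (insert u Y))
      have ih0 := ih (s + 1) φ
      have ih1 := ih s (fun Y => φ (insert u Y))
      unfold jVar at ih0 ih1 ⊢
      have hcard : (((insert u D).powersetCard (s + 1)).card : ℝ)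
          = ((D.powersetCard (s + 1)).card : ℝ) + ((D.powersetCard s).card : ℝ) := by
        have := sum_powersetCard_succ_insert hu s (fun _ => (1 : ℝ))
        simpa using this
      rw [hcard, hE, sum_powersetCard_succ_insert hu s φ,
        sum_powersetCard_succ_insert hu s (fun X => φ X ^ 2)]
      -- counting
      have hsd : ∀ Y ∈ D.powersetCard s, (D \ Y).card = D.card - s := by
        intro Y hY
        obtain ⟨hY1, hY2⟩ := mem_powersetCard.1 hY
        rw [card_sdiff_of_subset hY1, hY2]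
      have hXc : ∀ X ∈ D.powersetCard (s + 1), X.card = s + 1 := fun X hX =>
        (mem_powersetCard.1 hX).2
      have hM : ((D.powersetCard s).card : ℝ) * ((D.card - s : ℕ) : ℝ)
          = ((D.powersetCard (s + 1)).card : ℝ) * ((s : ℝ) + 1) := by
        have h := sum_powersetCard_sdiff D s (fun _ _ => (1 : ℝ))
        have hL : ∑ Y ∈ D.powersetCard s, ∑ d ∈ D \ Y, (1 : ℝ)
            = ((D.powersetCard s).card : ℝ) * ((D.card - s : ℕ) : ℝ) := by
          have : ∀ Y ∈ D.powersetCard s, ∑ d ∈ D \ Y, (1 : ℝ) = ((D.card - s : ℕ) : ℝ) := by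
            intro Y hY
            rw [sum_const, hsd Y hY, nsmul_eq_mul, mul_one]
          rw [sum_congr rfl this, sum_const, nsmul_eq_mul]
        have hR : ∑ X ∈ D.powersetCard (s + 1), ∑ c ∈ X, (1 : ℝ)
            = ((D.powersetCard (s + 1)).card : ℝ) * ((s : ℝ) + 1) := by
          have : ∀ X ∈ D.powersetCard (s + 1), ∑ c ∈ X, (1 : ℝ) = (s : ℝ) + 1 := by
            intro X hX
            rw [sum_const, hXc X hX, nsmul_eq_mul, mul_one]
            push_cast; rfl
          rw [sum_congr rfl this, sum_const, nsmul_eq_mul]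
        rw [← hL, ← hR]
        exact h
      have hlin : ∑ Y ∈ D.powersetCard s, ∑ d ∈ D \ Y, (φ (insert u Y) - φ (insert d Y))
          = ((D.card - s : ℕ) : ℝ) * ∑ Y ∈ D.powersetCard s, φ (insert u Y)
            - ((s : ℝ) + 1) * ∑ X ∈ D.powersetCard (s + 1), φ X := by
        simp only [sum_sub_distrib]
        congr 1
        · rw [mul_sum]
          refine sum_congr rfl fun Y hY => ?_
          rw [sum_const, hsd Y hY, nsmul_eq_mul]
        · rw [sum_powersetCard_sdiff D s (fun Y d => φ (insert d Y)), mul_sum]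
          refine sum_congr rfl fun X hX => ?_
          rw [sum_congr rfl (fun c hc => by rw [insert_erase hc]), sum_const, hXc X hX,
            nsmul_eq_mul]
          push_cast; ring
      have hCS : (((D.card - s : ℕ) : ℝ) * ∑ Y ∈ D.powersetCard s, φ (insert u Y)
            - ((s : ℝ) + 1) * ∑ X ∈ D.powersetCard (s + 1), φ X) ^ 2
          ≤ ((D.powersetCard s).card : ℝ) * ((D.card - s : ℕ) : ℝ) * jCross u D s φ := by
        rw [← hlin]
        unfold jCross
        rw [Finset.sum_sigma', Finset.sum_sigma']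
        refine (sq_sum_le_card_mul_sum_sq).trans ?_
        refine le_of_eq ?_
        congr 1
        rw [card_sigma, sum_congr rfl (fun Y hY => hsd Y hY), sum_const, smul_eq_mul]
        push_cast; ring
      refine final_ineq _ _ ((D.card - s : ℕ) : ℝ) ((s : ℝ) + 1) _ _ _ _ _ _ _
        (Nat.cast_nonneg _) (Nat.cast_nonneg _) ?_ ?_ hM hCS ih0 ih1 hE0 hE1 hEu ?_ ?_
      · intro hpos
        have hpos' : 0 < (D.powersetCard (s + 1)).card := by exact_mod_cast hpos
        have hne := Finset.card_pos.1 hpos'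
        rw [powersetCard_nonempty] at hne
        have : 1 ≤ D.card - s := by omega
        exact_mod_cast this
      · have : (0 : ℝ) ≤ s := Nat.cast_nonneg s
        linarith
      · intro h0
        have h0' : (D.powersetCard (s + 1)).card = 0 := by exact_mod_cast h0
        rw [Finset.card_eq_zero] at h0'
        simp [h0']
      · intro h0
        have h0' : (D.powersetCard s).card = 0 := by exact_mod_cast h0
        rw [Finset.card_eq_zero] at h0'
        simp [h0']

/-- **Johnson Poincaré inequality** (PROOF.md (T2) with constant `1/2` on unordered edges):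
for the `s`-subsets `K` of `D`,
`|K| ∑_K φ² - (∑_K φ)² ≤ (1/4) |K| ∑_{X ∈ K} ∑_{c ∈ X} ∑_{d ∈ D \ X} (φ X - φ (X - c + d))²`. -/
theorem johnson_poincare (D : Finset α) (s : ℕ) (φ : Finset α → ℝ) :
    ((D.powersetCard s).card : ℝ) * ∑ X ∈ D.powersetCard s, φ X ^ 2
        - (∑ X ∈ D.powersetCard s, φ X) ^ 2
      ≤ 1 / 4 * ((D.powersetCard s).card : ℝ) *
          ∑ X ∈ D.powersetCard s, ∑ c ∈ X, ∑ d ∈ D \ X,
            (φ X - φ (insert d (X.erase c))) ^ 2 :=
  jVar_le D s φ

end Crest.Agent.Helper80.S0453
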